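import Vale.Agent.P329.ClassDefs
import Vale.Agent.P329.S4.Class
import Mathlib.GroupTheory.Nilpotent

/-! Two definitions used to state the results on nilpotent groups briefly. -/

namespace Vale.Agent.P329.H112

/-- The language `L` has generalized star height at most one. -/
def HeightLeOne {α : Type} (L : Set (List α)) : Prop :=
  ∃ e : GRE α, e.height ≤ 1 ∧ e.lang = L

/-- `G` is a divisor (a quotient of a subgroup) of a finite direct product of finite groups, each
of which is nilpotent, or has a homomorphism to the symmetric group on three points whose kernel
has exponent at most two, or is abelian-by-(elementary abelian `p`) for some prime `p`. -/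
def DividesProduct (G : Type) [Group G] : Prop :=
  ∃ (ι : Type) (_ : Finite ι) (H : ι → Type) (_ : ∀ i, Group (H i)),
    (∀ i, Finite (H i) ∧
      (Group.IsNilpotent (H i) ∨ ElementaryTwoByS3 (H i) ∨ AbelianByElementary (H i))) ∧
    ∃ (D : Subgroup (∀ i, H i)) (π : D →* G), Function.Surjective π

end Vale.Agent.P329.H112
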