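import Vale.Agent.P329.H320.Final

/-!
# P329 / monoids which are aperiodic over known automata
-/

set_option linter.all false

namespace Vale.Agent.P329.H112

open Vale.Agent.P329

section gen

variable {α σ M : Type} [Monoid M]

/-- states: a value in `M` and a state of the known automaton, or dead -/
noncomputable def md (δ : σ → α → σ) (φ : α → M) (s : Option (M × σ)) (x : σ × α) :
    Option (M × σ) :=
  open Classical in
  match s with
  | none => none
  | some (m, q) => if q = x.1 then some (m * φ x.2, δ q x.2) else none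

theorem md_none (δ : σ → α → σ) (φ : α → M) (z : List (σ × α)) :
    z.foldl (md δ φ) none = none := by
  induction z with
  | nil => rfl
  | cons x z ih => rw [List.foldl_cons]; exact ih

/-- a run that does not die reads an annotated word -/
theorem md_some (δ : σ → α → σ) (φ : α → M) (z : List (σ × α)) : ∀ (m : M) (q : σ) (t : M × σ),
    z.foldl (md δ φ) (some (m, q)) = some t →
      z = H157.ann δ id q (z.map Prod.snd) ∧
      t = (m * ((z.map Prod.snd).map φ).prod, (z.map Prod.snd).foldl δ q) := by
  induction z with
  | nil =>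
    intro m q t ht
    rw [List.foldl_nil] at ht
    cases ht
    refine ⟨rfl, ?_⟩
    rw [List.map_nil, List.map_nil, List.prod_nil, mul_one, List.foldl_nil]
  | cons x z ih =>
    intro m q t ht
    rw [List.foldl_cons] at ht
    obtain ⟨q1, a⟩ := x
    by_cases hq : q = q1
    · subst hq
      have e1 : md δ φ (some (m, q)) (q, a) = some (m * φ a, δ q a) := by
        rw [md]; exact if_pos rfl
      rw [e1] at ht
      obtain ⟨h1, h2⟩ := ih _ _ _ ht
      refine ⟨?_, ?_⟩
      · rw [List.map_cons, H157.ann, ← h1]; rfl
      · rw [h2, List.map_cons, List.map_cons, List.prod_cons, List.foldl_cons, mul_assoc]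
    · have e1 : md δ φ (some (m, q)) (q1, a) = none := by
        rw [md]; exact if_neg hq
      rw [e1, md_none] at ht
      cases ht

theorem md_ann (δ : σ → α → σ) (φ : α → M) (w : List α) : ∀ (m : M) (q : σ),
    (H157.ann δ id q w).foldl (md δ φ) (some (m, q)) =
      some (m * (w.map φ).prod, w.foldl δ q) := by
  induction w with
  | nil => intro m q; rw [H157.ann, List.foldl_nil, List.map_nil, List.prod_nil, mul_one]; rfl
  | cons a w ih =>
    intro m q
    rw [H157.ann, List.foldl_cons]
    have e1 : md δ φ (some (m, q)) (id q, a) = some (m * φ a, δ q a) := by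
      rw [md]; exact if_pos rfl
    rw [e1, ih, List.map_cons, List.prod_cons, List.foldl_cons, mul_assoc]

theorem mal_aux [Finite α] [Finite σ] [Finite M] (δ : σ → α → σ)
    (h : ∀ q q', SH 1 {u : List α | u.foldl δ q = q'}) (φ : α → M)
    (hap : ∀ (v : List α) (q : σ), v ≠ [] → v.foldl δ q = q →
      ∃ k, ((v.map φ).prod) ^ (k + 1) = ((v.map φ).prod) ^ k)
    (q₀ : σ) (S : Set M) : SH 1 {w : List α | (w.map φ).prod ∈ S} := by
  classical
  have hcyc : ∀ (z : List (σ × α)) (s : Option (M × σ)) (n : ℕ), 0 < n →
      (fun t => z.foldl (md δ φ) t)^[n] s = s → z.foldl (md δ φ) s = s := by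
    intro z s n hn hs
    have hnone : ∀ j, (fun t => z.foldl (md δ φ) t)^[j] none = none := by
      intro j
      induction j with
      | zero => rfl
      | succ j ih => rw [Function.iterate_succ_apply', ih]; exact md_none δ φ z
    cases s with
    | none => exact md_none δ φ z
    | some s =>
      obtain ⟨m, q⟩ := s
      cases n with
      | zero => exact absurd hn (lt_irrefl 0)
      | succ n =>
        cases n with
        | zero => exact hs
        | succ n =>
          by_cases hz : z = []
          · subst hz; rfl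
          · -- the second reading does not die either
            have h1 : z.foldl (md δ φ) (some (m, q)) ≠ none := by
              intro h1
              rw [Function.iterate_succ_apply] at hs
              rw [h1, hnone] at hs
              cases hs
            obtain ⟨t, ht⟩ := Option.ne_none_iff_exists'.mp h1
            obtain ⟨m1, q1⟩ := t
            have h2 : z.foldl (md δ φ) (some (m1, q1)) ≠ none := by
              intro h2
              rw [Function.iterate_succ_apply, Function.iterate_succ_apply] at hs
              rw [ht, h2, hnone] at hs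
              cases hs
            obtain ⟨t2, ht2⟩ := Option.ne_none_iff_exists'.mp h2
            obtain ⟨e3, e4⟩ := md_some δ φ z m q _ ht
            obtain ⟨e5, e6⟩ := md_some δ φ z m1 q1 _ ht2
            have hq : q1 = q := by
              obtain ⟨x, z', rfl⟩ := List.exists_cons_of_ne_nil hz
              have e7 := e3.symm.trans e5
              rw [List.map_cons, H157.ann, H157.ann, List.cons.injEq, Prod.mk.injEq] at e7
              exact e7.1.1.symm
            rw [Prod.mk.injEq] at e4
            have hqq : (z.map Prod.snd).foldl δ q = q := by rw [← e4.2]; exact hq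
            obtain ⟨k, hk⟩ := hap (z.map Prod.snd) q (by
              intro h0; exact hz (List.map_eq_nil_iff.mp h0)) hqq
            -- values of all readings
            have h3 : ∀ j, (fun t => z.foldl (md δ φ) t)^[j] (some (m, q)) =
                some (m * (((z.map Prod.snd).map φ).prod) ^ j, q) := by
              intro j
              induction j with
              | zero => rw [pow_zero, mul_one]; rfl
              | succ j ih =>
                rw [Function.iterate_succ_apply', ih]
                change z.foldl (md δ φ) (some (_, q)) = _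
                have e8 := md_ann δ φ (z.map Prod.snd)
                  (m * (((z.map Prod.snd).map φ).prod) ^ j) q
                rw [← e3, hqq] at e8
                rw [e8, mul_assoc, ← pow_succ]
            set P := ((z.map Prod.snd).map φ).prod with hP
            have h4 : m * P ^ (n + 1 + 1) = m := by
              have := h3 (n + 1 + 1)
              rw [hs, Option.some.injEq, Prod.mk.injEq] at this
              exact this.1.symm
            have h5 : ∀ i, m * P ^ ((n + 1 + 1) * i) = m := by
              intro i
              induction i with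
              | zero => rw [Nat.mul_zero, pow_zero, mul_one]
              | succ i ih => rw [Nat.mul_succ, pow_add, ← mul_assoc, ih, h4]
            have h6 : ∀ i, P ^ (k + i + 1) = P ^ (k + i) := by
              intro i
              rw [Nat.add_right_comm, pow_add, hk, ← pow_add]
            have h7 : m * P = m := by
              have h8 := h5 (k + 1)
              obtain ⟨i, hi⟩ : ∃ i, (n + 1 + 1) * (k + 1) = k + i := by
                refine ⟨(n + 1) * (k + 1) + 1, ?_⟩
                ring
              rw [hi] at h8
              have h9 : m * P ^ (k + i + 1) = m * P := by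
                rw [pow_succ, ← mul_assoc, h8]
              rw [h6 i, h8] at h9
              exact h9.symm
            rw [ht, e4.1, hq, h7]
  have hfin : Finite (Option (M × σ)) := inferInstance
  obtain ⟨e, he, hl⟩ := dfa_sf (md δ φ) hcyc (some ((1 : M), q₀))
    (fun s => ∃ t : M × σ, s = some t ∧ t.1 ∈ S)
  have h1 := H157.ann_sh δ (id : σ → σ) h e (Nat.le_zero.mp he) q₀
  refine Eq.mp (congrArg (SH 1) ?_) h1
  ext w
  rw [Set.mem_ofPred_eq, Set.mem_ofPred_eq, hl, Set.mem_ofPred_eq, md_ann]
  constructor
  · rintro ⟨t, ht, hS⟩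
    rw [Option.some.injEq] at ht
    rw [← ht] at hS
    rw [← one_mul ((w.map φ).prod)]
    exact hS
  · intro hS
    exact ⟨_, rfl, by rw [one_mul]; exact hS⟩

/-- Only reachable states matter. -/
theorem mal [Finite α] [Finite σ] [Finite M] (δ : σ → α → σ)
    (h : ∀ q q', SH 1 {u : List α | u.foldl δ q = q'}) (q₀ : σ) (φ : α → M)
    (hap : ∀ u v : List α, v ≠ [] → (u ++ v).foldl δ q₀ = u.foldl δ q₀ →
      ∃ k, ((v.map φ).prod) ^ (k + 1) = ((v.map φ).prod) ^ k)
    (S : Set M) : SH 1 {w : List α | (w.map φ).prod ∈ S} := by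
  let T : Type := {q : σ // ∃ u : List α, u.foldl δ q₀ = q}
  let δ' : T → α → T := fun q a => ⟨δ q.1 a, by
    obtain ⟨u, hu⟩ := q.2
    exact ⟨u ++ [a], by rw [List.foldl_append, hu]; rfl⟩⟩
  have hfold : ∀ (w : List α) (q : T), (w.foldl δ' q).1 = w.foldl δ q.1 := by
    intro w
    induction w with
    | nil => intro q; rfl
    | cons a w ih => intro q; rw [List.foldl_cons, List.foldl_cons, ih]
  refine mal_aux δ' (fun q q' => ?_) φ (fun v q hv hq => ?_) ⟨q₀, [], rfl⟩ S
  · refine Eq.mp (congrArg (SH 1) ?_) (h q.1 q'.1)
    ext w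
    rw [Set.mem_ofPred_eq, Set.mem_ofPred_eq]
    constructor
    · intro h1; exact Subtype.ext ((hfold w q).trans h1)
    · intro h1; rw [← hfold, h1]
  · obtain ⟨u, hu⟩ := q.2
    refine hap u v hv ?_
    rw [List.foldl_append, hu, ← hfold, hq]

/-- products of known automata -/
theorem known_prod {σ' : Type} (δ : σ → α → σ) (δ' : σ' → α → σ')
    (h : ∀ q q', SH 1 {u : List α | u.foldl δ q = q'})
    (h' : ∀ q q', SH 1 {u : List α | u.foldl δ' q = q'}) :
    ∀ q q', SH 1 {u : List α |
      u.foldl (fun (s : σ × σ') a => (δ s.1 a, δ' s.2 a)) q = q'} := by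
  intro q q'
  have e : ∀ (w : List α) (s : σ × σ'),
      w.foldl (fun (s : σ × σ') a => (δ s.1 a, δ' s.2 a)) s = (w.foldl δ s.1, w.foldl δ' s.2) := by
    intro w
    induction w with
    | nil => intro s; rfl
    | cons a w ih => intro s; rw [List.foldl_cons, ih]; rfl
  refine Eq.mp (congrArg (SH 1) ?_) ((h q.1 q'.1).inter (h' q.2 q'.2))
  ext w
  rw [Set.mem_ofPred_eq, e, Prod.ext_iff]
  exact Iff.rfl

theorem foldl_prod {σ' : Type} (δ : σ → α → σ) (δ' : σ' → α → σ') (w : List α) (s : σ × σ') :
    w.foldl (fun (s : σ × σ') a => (δ s.1 a, δ' s.2 a)) s = (w.foldl δ s.1, w.foldl δ' s.2) := by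
  induction w generalizing s with
  | nil => rfl
  | cons a w ih => rw [List.foldl_cons, ih]; rfl

theorem foldl_pi {κ : Type} {τ : κ → Type} (δ : ∀ j, τ j → α → τ j) (w : List α)
    (s : ∀ j, τ j) :
    w.foldl (fun (s : ∀ j, τ j) a => fun j => δ j (s j) a) s = fun j => w.foldl (δ j) (s j) := by
  induction w generalizing s with
  | nil => rfl
  | cons a w ih => rw [List.foldl_cons, ih]; rfl

theorem known_pi {κ : Type} [Finite κ] {τ : κ → Type} (δ : ∀ j, τ j → α → τ j)
    (h : ∀ j q q', SH 1 {u : List α | u.foldl (δ j) q = q'}) :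
    ∀ q q', SH 1 {u : List α |
      u.foldl (fun (s : ∀ j, τ j) a => fun j => δ j (s j) a) q = q'} := by
  intro q q'
  refine Eq.mp (congrArg (SH 1) ?_) (SH.iInter fun j => h j (q j) (q' j))
  ext w
  rw [Set.mem_ofPred_eq, foldl_pi, Set.mem_iInter]
  constructor
  · intro h1; funext j; exact h1 j
  · intro h1 j
    exact congrFun h1 j

end gen

/-- Monoids which are aperiodic over a group and finitely many context products. -/
theorem mal_ctx {α M G₀ : Type} [Finite α] [Monoid M] [Finite M] [Group G₀] [Finite G₀]
    (f : α → G₀) (hf : ∀ S : Set G₀, SH 1 {w : List α | (w.map f).prod ∈ S})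
    {κ : Type} [Finite κ] {G : κ → Type} [∀ j, Group (G j)] [∀ j, Finite (G j)] (n : κ → ℕ)
    (hn : ∀ j, n j ≠ 0) (hL : ∀ j, H434.LocK (n j)) (hG : ∀ j, H434.CtxK (n j) (G j))
    (c : κ → ℕ) (ψ : ∀ j, ZMod (n j) → List α → α → G j) (φ : α → M)
    (hap : ∀ u v : List α, v ≠ [] → (v.map f).prod = 1 →
      (∀ j, n j ∣ v.length ∧ (u ++ v).drop ((u ++ v).length - c j) = u.drop (u.length - c j) ∧
        ctxProdN (n j) (c j) (ψ j) (u ++ v) = ctxProdN (n j) (c j) (ψ j) u) →
      ∃ k, ((v.map φ).prod) ^ (k + 1) = ((v.map φ).prod) ^ k)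
    (S : Set M) : SH 1 {w : List α | (w.map φ).prod ∈ S} := by
  have hnz : ∀ j, NeZero (n j) := fun j => ⟨hn j⟩
  have hfin : ∀ j, Finite (H434.CSN α (G j) (n j) (c j)) := by
    intro j
    have h1 : Finite {Z : List α // Z.length ≤ c j} := (List.finite_length_le α (c j)).to_subtype
    have h2 := hnz j
    infer_instance
  have h1 := known_pi (fun j => H434.cstepN (c := c j) (ψ j))
    (fun j => H434.cstepN_sh (hL j) (hG j) (ψ j))
  have h2 : ∀ q q', SH 1 {u : List α | u.foldl (fun g a => g * f a) q = q'} := by
    intro q q'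
    refine Eq.mp (congrArg (SH 1) ?_) (hf {q⁻¹ * q'})
    ext w
    rw [Set.mem_ofPred_eq, Set.mem_ofPred_eq, H157.foldl_group, Set.mem_singleton_iff,
      eq_inv_mul_iff_mul_eq]
  have E : ∀ w : List α, w.foldl (fun (s : G₀ × ∀ j, H434.CSN α (G j) (n j) (c j)) a =>
      (s.1 * f a, fun j => H434.cstepN (ψ j) (s.2 j) a))
      ((1 : G₀), fun j => ((0, ⟨[], Nat.zero_le _⟩, 1) : H434.CSN α (G j) (n j) (c j))) =
      (w.foldl (fun g a => g * f a) 1, fun j => w.foldl (H434.cstepN (ψ j))
        ((0, ⟨[], Nat.zero_le _⟩, 1) : H434.CSN α (G j) (n j) (c j))) := by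
    intro w
    refine (foldl_prod (fun (g : G₀) a => g * f a)
      (fun (s : ∀ j, H434.CSN α (G j) (n j) (c j)) a => fun j => H434.cstepN (ψ j) (s j) a)
      w _).trans ?_
    rw [foldl_pi]
  refine mal _ (known_prod _ _ h2 h1)
    ((1 : G₀), fun j => ((0, ⟨[], Nat.zero_le _⟩, 1) : H434.CSN α (G j) (n j) (c j))) φ ?_ S
  intro u v hv huv
  have huv' := ((E (u ++ v)).symm.trans huv).trans (E u)
  clear huv
  rename' huv' => huv
  rw [Prod.mk.injEq] at huv
  obtain ⟨e1, e2⟩ := huv
  refine hap u v hv ?_ (fun j => ?_)
  · rw [H157.foldl_group, H157.foldl_group, one_mul, one_mul, List.map_append, List.prod_append]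
      at e1
    exact mul_eq_left.mp e1
  · have e3 := congrFun e2 j
    have a1 := H434.cstepN_run (c := c j) (ψ j)
      ((0, ⟨[], Nat.zero_le _⟩, 1) : H434.CSN α (G j) (n j) (c j)) (u ++ v)
    have a2 := H434.cstepN_run (c := c j) (ψ j)
      ((0, ⟨[], Nat.zero_le _⟩, 1) : H434.CSN α (G j) (n j) (c j)) u
    refine ⟨?_, ?_, ?_⟩
    · have e4 := congrArg (fun q => q.1) e3
      have e5 : ((0 : ZMod (n j)) + ((u ++ v).length : ZMod (n j))) = 0 + (u.length : ZMod (n j)) :=
        a1.1.symm.trans (e4.trans a2.1)
      rw [zero_add, zero_add, List.length_append, Nat.cast_add, add_eq_left] at e5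
      exact (ZMod.natCast_eq_zero_iff _ _).mp e5
    · have e4 := congrArg (fun q => q.2.1.1) e3
      have e5 : ((u ++ v).reverse ++ []).take (c j) = (u.reverse ++ []).take (c j) :=
        a1.2.1.symm.trans (e4.trans a2.2.1)
      rw [List.append_nil, List.append_nil, List.take_reverse, List.take_reverse] at e5
      exact List.reverse_injective e5
    · have e4 := congrArg (fun q => q.2.2) e3
      rw [← H434.ctxProdN_eq, ← H434.ctxProdN_eq]
      exact e4

end Vale.Agent.P329.H112
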