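import Vale.Agent.P329.H112.Mal
import Vale.Agent.P329.H320.OfK
import Vale.Agent.P329.H434.RowK
import Vale.Agent.P329.H962.Fin

/-!
# P329 / monoids over nilpotent groups and context products
-/

set_option linter.all false

namespace Vale.Agent.P329.H112

open Vale.Agent.P329

theorem core_all : ∀ (p : ℕ), p.Prime → ∀ (α : Type) [Finite α] (c : ℕ), H320.Core p α c :=
  H320.core_of_rowK (H434.rowK H483.rowC H657.rowF1 H320.rowF6 H962.Fin.core)

/-- Relational morphisms to a group with known languages, aperiodic over `1`. -/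
theorem mal_rel {α M G : Type} [Finite α] [Monoid M] [Finite M] [Group G] [Finite G]
    (h : ∀ (f : α → G) (S : Set G), SH 1 {w : List α | (w.map f).prod ∈ S})
    (R : Submonoid (M × G)) (hR : ∀ m, ∃ g, (m, g) ∈ R)
    (hap : ∀ m, (m, 1) ∈ R → ∃ k, m ^ (k + 1) = m ^ k) (φ : α → M) (S : Set M) :
    SH 1 {w : List α | (w.map φ).prod ∈ S} := by
  choose g hg using fun a => hR (φ a)
  have h1 : ∀ w : List α, ((w.map φ).prod, (w.map g).prod) ∈ R := by
    intro w
    induction w with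
    | nil => exact R.one_mem
    | cons a w ih =>
      rw [List.map_cons, List.map_cons, List.prod_cons, List.prod_cons]
      exact R.mul_mem (hg a) ih
  refine mal (fun x a => x * g a) (fun q q' => ?_) (1 : G) φ (fun u v hv huv => ?_) S
  · refine Eq.mp (congrArg (SH 1) ?_) (h g {q⁻¹ * q'})
    ext w
    rw [Set.mem_ofPred_eq, Set.mem_ofPred_eq, H157.foldl_group, Set.mem_singleton_iff,
      eq_inv_mul_iff_mul_eq]
  · rw [H157.foldl_group, H157.foldl_group, one_mul, one_mul, List.map_append, List.prod_append]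
      at huv
    have h2 := mul_eq_left.mp huv
    refine hap _ ?_
    have h3 := h1 v
    rw [h2] at h3
    exact h3

theorem nil_mon {α M G : Type} [Finite α] [Monoid M] [Finite M] [Group G] [Finite G]
    (hG : Group.IsNilpotent G) (R : Submonoid (M × G)) (hR : ∀ m, ∃ g, (m, g) ∈ R)
    (hap : ∀ m, (m, 1) ∈ R → ∃ k, m ^ (k + 1) = m ^ k) (φ : α → M) (S : Set M) :
    SH 1 {w : List α | (w.map φ).prod ∈ S} :=
  mal_rel (fun f S => (H434.CtxK.nil_of_core core_all hG).word f S) R hR hap φ S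

theorem ctx_mon {α : Type} [Finite α] {ι : Type} [Finite ι] {H : ι → Type}
    [∀ i, Group (H i)] [∀ i, Finite (H i)]
    (hH : ∀ i, Group.IsNilpotent (H i) ∨ ElementaryTwoByS3 (H i) ∨ AbelianByElementary (H i))
    (D : Subgroup (∀ i, H i)) {G₀ : Type} [Group G₀] (π : D →* G₀)
    (hπ : Function.Surjective π) (f : α → G₀)
    {κ : Type} [Finite κ] {G : κ → Type} [∀ j, Group (G j)] [∀ j, Finite (G j)] (n : κ → ℕ)
    (hn : ∀ j, n j = 1 ∧ Group.IsNilpotent (G j) ∨
      ∃ p l, p.Prime ∧ IsPGroup p (G j) ∧ n j = p ^ l)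
    (c : κ → ℕ) (ψ : ∀ j, ZMod (n j) → List α → α → G j)
    {M : Type} [Monoid M] [Finite M] (φ : α → M)
    (hap : ∀ u v : List α, v ≠ [] → (v.map f).prod = 1 →
      (∀ j, n j ∣ v.length ∧ (u ++ v).drop ((u ++ v).length - c j) = u.drop (u.length - c j) ∧
        ctxProdN (n j) (c j) (ψ j) (u ++ v) = ctxProdN (n j) (c j) (ψ j) u) →
      ∃ k, ((v.map φ).prod) ^ (k + 1) = ((v.map φ).prod) ^ k)
    (S : Set M) : SH 1 {w : List α | (w.map φ).prod ∈ S} := by
  have hfin : Finite G₀ := Finite.of_surjective π hπ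
  have h1 := ((H320.final core_all).2.1 α ι H hH D G₀ π hπ f).1
  have h2 : ∀ j, n j ≠ 0 ∧ H434.LocK (n j) ∧ H434.CtxK (n j) (G j) := by
    intro j
    rcases hn j with ⟨h3, hG⟩ | ⟨p, l, hp, hG, h3⟩
    · rw [h3]
      exact ⟨one_ne_zero, H434.LocK.one, H434.CtxK.nil_of_core core_all hG⟩
    · rw [h3]
      have hf : Fact p.Prime := ⟨hp⟩
      have h4 : ∀ (K : Type) [Group K] [Finite K], IsPGroup p K → H434.CtxK 1 K :=
        fun K _ _ hK => H434.CtxK.of_core (core_all p hp) K hK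
      refine ⟨pow_ne_zero l hp.ne_zero, ?_, H434.CtxK.clock_p h4 hG l⟩
      refine H434.LocK.of_ctx (p := p) (H434.CtxK.clock_p h4 ?_ l)
      refine IsPGroup.of_card (n := 1) ?_
      rw [Nat.card_congr (Multiplicative.toAdd : Multiplicative (ZMod p) ≃ ZMod p),
        Nat.card_zmod, pow_one]
  exact mal_ctx f h1 n (fun j => (h2 j).1) (fun j => (h2 j).2.1) (fun j => (h2 j).2.2) c ψ φ hap S

end Vale.Agent.P329.H112
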